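import Vale.Agent.P004H.H871.FE
import Vale.Agent.P004H.H792.Q11

/-!
# P004, `X_0(11)`: row R5 for the form `eta(z)^2 eta(11 z)^2`, in the form of `P004G.Modl`
-/

namespace Vale.Agent.P004H.H871

open P004G P004G.ML
open Vale.Agent.P004H.H742 (kron LT)
open Vale.Agent.P004H (H792.a H792.Fc)

/-- `eta(z)^2 eta(11 z)^2` is a form in the sense of this file -/
theorem form11 : Form H792.Fc H792.a where
  slash := fun p q r s hdet hr z hz => by
    obtain ⟨c, rfl⟩ := hr
    exact H792.Fc_mob hdet hz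
  fricke := fun z hz => H792.Fc_W hz
  qexp := fun z hz => by
    have h := H792.hasSum_Fc hz
    refine h.congr_fun fun n => ?_
    congr 1
    unfold H792.qq
    rw [← Complex.exp_nat_mul]
    congr 1
    ring

/-- **row R5**: the functional equations of all quadratic twists of `X_0(11)` -/
theorem fe11 {D : ℤ} (hD : Fund1 D) (A : ℕ → ℤ) (hA : ∀ n, A n = H792.a n * kron D n) {y : ℝ}
    (hy : 0 < y) :
    ∑' n : ℕ, (A n : ℝ) * Real.exp (-2 * Real.pi * n * (1 / (cond D * y))) =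
      root D * cond D * y ^ 2 * ∑' n : ℕ, (A n : ℝ) * Real.exp (-2 * Real.pi * n * y) :=
  fe_all form11 H792.a_zero (fd_of_fund1 hD) A hA hy

/-- the functional equation in the form of `P004G.FEt` -/
theorem fet {D : ℤ} (hD : Fund1 D) (hL : ∀ n, LT D n = H792.a n * kron D n) :
    FEt (-13392 * D ^ 2) (-1080432 * D ^ 3) (cond D) (root D) := fun _ hy =>
  fe11 hD (LT D) hL hy

/-- the functional equation in the form of `P004G.FEq` -/
theorem feq {D : ℤ} (hD : Fund1 D) (hL : ∀ n, LT D n = H792.a n * kron D n) :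
    FEq (LT D) (cond D / 4) (root D) := by
  have h1 : ((root D : ℤ) : ℝ) = 1 ∨ ((root D : ℤ) : ℝ) = -1 := by
    rcases root_pm D with h | h <;> rw [h] <;> norm_num
  exact feq_of (cond_pos (fd_of_fund1 hD).ne) h1 (fet hD hL)

/-- the field `fe` of `P004G.Modl` -/
theorem modl_fe (hL : ∀ D : ℤ, Fund1 D → ∀ n, LT D n = H792.a n * kron D n) :
    ∃ C : ℝ, 1 ≤ C ∧ ∀ D : ℤ, Fund1 D → ∃ N κ : ℝ, 0 < N ∧ (κ = 1 ∨ κ = -1) ∧
      (D : ℝ) ^ 2 / C ≤ N ∧ N ≤ C * (D : ℝ) ^ 2 ∧
        FEt (-13392 * D ^ 2) (-1080432 * D ^ 3) N κ := by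
  refine ⟨11, by norm_num, fun D hD => ⟨cond D, root D, cond_pos (fd_of_fund1 hD).ne, ?_,
    le_cond D, cond_le D, fet hD (hL D hD)⟩⟩
  rcases root_pm D with h | h <;> rw [h] <;> norm_num

end Vale.Agent.P004H.H871
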