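import Vale.Agent.P004H.H871.Twist
import Vale.Agent.P004H.H742.L7
import Vale.Agent.P004G.H503.Fin2

/-!
# P004, `X_0(11)`: the functional equations of all quadratic twists (row R5)
-/

namespace Vale.Agent.P004H.H871

open P004G P004G.ML
open Vale.Agent.P004H.H742 (kron k2)

lemma fd_of_fund1 {D : ℤ} (h : Fund1 D) : Fd D := by
  rcases h with rfl | ⟨-, h⟩
  · exact Or.inl ⟨by norm_num, squarefree_one⟩
  · exact h

/-- the two forms of the Kronecker symbol agree -/
theorem kron_eq {D : ℤ} (hD : Fd D) {n : ℕ} (hn : n ≠ 0) : kron D n = kr D n := by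
  have h1 : 2 ^ padicValNat 2 n * (n / 2 ^ padicValNat 2 n) = n :=
    Nat.mul_div_cancel' pow_padicValNat_dvd
  have hodd : Odd (n / 2 ^ padicValNat 2 n) := by
    rw [← Nat.not_even_iff_odd, even_iff_two_dvd]
    intro h
    have h2 : 2 ^ (padicValNat 2 n + 1) ∣ n := by
      rw [pow_succ]
      conv_rhs => rw [← h1]
      exact mul_dvd_mul_left _ h
    exact pow_succ_padicValNat_not_dvd hn h2
  have h2 : kr D 2 = k2 D := by
    rcases hD.cases with ⟨h, -⟩ | ⟨d, rfl, h, -⟩ | ⟨d, rfl, h, -⟩ | ⟨d, rfl, h, -⟩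
    · rw [kr_two h]
      unfold k2
      rw [if_neg (show ¬ D % 2 = 0 by omega)]
    · rw [kr_zero hD (by
        intro h3
        have := h3.isUnit_of_dvd' (Dvd.dvd.mul_right (by norm_num : (2 : ℤ) ∣ 4) d) (dvd_refl 2)
        rw [Int.isUnit_iff] at this
        omega)]
      unfold k2
      rw [if_pos (by omega)]
    · rw [kr_zero hD (by
        intro h3
        have := h3.isUnit_of_dvd' (Dvd.dvd.mul_right (by norm_num : (2 : ℤ) ∣ 8) d) (dvd_refl 2)
        rw [Int.isUnit_iff] at this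
        omega)]
      unfold k2
      rw [if_pos (by omega)]
    · rw [kr_zero hD (by
        intro h3
        have := h3.isUnit_of_dvd' (Dvd.dvd.mul_right (by norm_num : (2 : ℤ) ∣ 8) d) (dvd_refl 2)
        rw [Int.isUnit_iff] at this
        omega)]
      unfold k2
      rw [if_pos (by omega)]
  have h3 : ∀ k : ℕ, kr D ((2 : ℤ) ^ k) = k2 D ^ k := by
    intro k
    induction k with
    | zero => rw [pow_zero, pow_zero]; exact kr_one hD
    | succ k ih => rw [pow_succ, kr_mul hD, ih, h2, pow_succ]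
  have h4 : kr D n = kr D ((2 : ℤ) ^ padicValNat 2 n) * kr D ((n / 2 ^ padicValNat 2 n : ℕ) : ℤ) := by
    rw [← kr_mul hD]
    congr 1
    conv_lhs => rw [← h1]
    push_cast
    rfl
  rw [h4, h3, kr_odd hD hodd]
  rfl

/-- `χ_D(-1) = sgn D` -/
theorem kr_neg_one {D : ℤ} (hD : Fd D) : kr D (-1) = if 0 < D then 1 else -1 := by
  have key : ∀ d : ℤ, d % 2 = 1 → jacobiSym (-1) d.natAbs = if d.natAbs % 4 = 1 then 1 else -1 := by
    intro d hd
    rw [jacobiSym.at_neg_one (odd_natAbs hd)]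
    split_ifs with h
    · exact ZMod.χ₄_nat_one_mod_four h
    · exact ZMod.χ₄_nat_three_mod_four (by omega)
  rcases hD.cases with ⟨h, -⟩ | ⟨d, rfl, h, -⟩ | ⟨d, rfl, h, -⟩ | ⟨d, rfl, h, -⟩
  · rw [kr_one_mod h]
    show jacobiSym (-1) D.natAbs = _
    rw [key D (by omega)]
    split_ifs <;> omega
  · rw [kr_four h]
    show ZMod.χ₄ (((-1 : ℤ)) : ZMod 4) * jacobiSym (-1) d.natAbs = _
    rw [key d (by omega), show ZMod.χ₄ (((-1 : ℤ)) : ZMod 4) = -1 by decide]
    split_ifs <;> omega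
  · rw [kr_eight h]
    show ZMod.χ₈ (((-1 : ℤ)) : ZMod 8) * jacobiSym (-1) d.natAbs = _
    rw [key d (by omega), show ZMod.χ₈ (((-1 : ℤ)) : ZMod 8) = 1 by decide]
    split_ifs <;> omega
  · rw [kr_eight' h]
    show ZMod.χ₈' (((-1 : ℤ)) : ZMod 8) * jacobiSym (-1) d.natAbs = _
    rw [key d (by omega), show ZMod.χ₈' (((-1 : ℤ)) : ZMod 8) = -1 by decide]
    split_ifs <;> omega

/-- the conductor of the twist by `D` -/
def cond (D : ℤ) : ℝ := if (11 : ℤ) ∣ D then (D : ℝ) ^ 2 else 11 * (D : ℝ) ^ 2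

/-- the root number of the twist by `D`: `χ_D(-11)` if `11 ∤ D`, `-χ_D(-1)` if `11 ∣ D` -/
noncomputable def root (D : ℤ) : ℤ :=
  (if 0 < D then 1 else -1) * (if (11 : ℤ) ∣ D then -1 else jacobiSym D 11)

lemma cond_pos {D : ℤ} (hD : D ≠ 0) : 0 < cond D := by
  unfold cond
  have : (0 : ℝ) < (D : ℝ) ^ 2 := by positivity
  split_ifs <;> positivity

lemma cond_le (D : ℤ) : cond D ≤ 11 * (D : ℝ) ^ 2 := by
  unfold cond
  have : (0 : ℝ) ≤ (D : ℝ) ^ 2 := by positivity
  split_ifs <;> linarith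

lemma le_cond (D : ℤ) : (D : ℝ) ^ 2 / 11 ≤ cond D := by
  unfold cond
  have : (0 : ℝ) ≤ (D : ℝ) ^ 2 := by positivity
  split_ifs <;> linarith

lemma root_pm (D : ℤ) : root D = 1 ∨ root D = -1 := by
  unfold root
  by_cases h : (11 : ℤ) ∣ D
  · rw [if_pos h]
    split_ifs <;> norm_num
  · rw [if_neg h]
    have h1 : Int.gcd D 11 = 1 := by
      rw [← Int.isCoprime_iff_gcd_eq_one]
      exact (((Nat.prime_iff_prime_int.1 (by norm_num : Nat.Prime 11)).coprime_iff_not_dvd).2 h).symm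
    rcases jacobiSym.eq_one_or_neg_one h1 with h2 | h2 <;> rw [h2] <;> split_ifs <;> norm_num

variable {F : ℂ → ℂ} {a : ℕ → ℤ}

/-- **the functional equations of all quadratic twists** -/
theorem fe_all (h : Form F a) (h0 : a 0 = 0) {D : ℤ} (hD : Fd D) (A : ℕ → ℤ)
    (hA : ∀ n, A n = a n * kron D n) {y : ℝ} (hy : 0 < y) :
    ∑' n : ℕ, (A n : ℝ) * Real.exp (-2 * Real.pi * n * (1 / (cond D * y))) =
      root D * cond D * y ^ 2 * ∑' n : ℕ, (A n : ℝ) * Real.exp (-2 * Real.pi * n * y) := by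
  have hm : NeZero D.natAbs := ⟨Int.natAbs_ne_zero.2 hD.ne⟩
  have hc := kr_rc hD
  have e : ∀ t : ℝ, ∑' n : ℕ, (A n : ℝ) * Real.exp (-2 * Real.pi * n * t) = fD a (kr D) t := by
    intro t
    unfold fD
    refine tsum_congr fun n => ?_
    rcases eq_or_ne n 0 with rfl | hn
    · rw [hA, h0]
      simp
    · rw [hA, kron_eq hD hn]
  have hm2 : ((D.natAbs : ℕ) : ℝ) ^ 2 = (D : ℝ) ^ 2 := by
    rw [Nat.cast_natAbs, Int.cast_abs, sq_abs]
  rw [e, e]
  by_cases h11 : (11 : ℤ) ∣ D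
  · have h1 := fe2 h hc (by omega) hy
    rw [hm2, kr_neg_one hD] at h1
    unfold cond root
    rw [if_pos h11, if_pos h11, h1]
    push_cast
    ring
  · have hp : Nat.Prime 11 := by norm_num
    have hco : D.natAbs.Coprime 11 := ((Nat.Prime.coprime_iff_not_dvd hp).2 (by omega)).symm
    have h1 := fe1 h hc hco hy
    have e11 : kr D (-11) = (if 0 < D then 1 else -1) * jacobiSym D 11 := by
      rw [show (-11 : ℤ) = -1 * ((11 : ℕ) : ℤ) by norm_num, kr_mul hD, kr_neg_one hD,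
        kr_odd hD (by decide)]
    rw [hm2, e11] at h1
    unfold cond root
    rw [if_neg h11, if_neg h11, h1]

end Vale.Agent.P004H.H871
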