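import Vale.Agent.P004.C3

/-!
# P004, `X_0(11)`: real characters with their Gauss sums, and the characters `χ_D`
-/

namespace Vale.Agent.P004H.H871

open Complex Finset

/-- a real character modulo `m` (as a function on `ℤ`) with its Gauss sums -/
structure RC (m : ℕ) [NeZero m] (c : ℤ → ℤ) : Prop where
  per : ∀ x y : ℤ, (x : ZMod m) = (y : ZMod m) → c x = c y
  mul : ∀ x y : ℤ, c (x * y) = c x * c y
  one : c 1 = 1
  zero : ∀ x : ℤ, ¬ IsUnit (x : ZMod m) → c x = 0
  gauss : ∃ g : ℂ, g ≠ 0 ∧ ∀ k : ℤ,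
    ∑ u : ZMod m, (c u.val : ℂ) * ZMod.stdAddChar (u * (k : ZMod m)) = c k * g

namespace RC

variable {m : ℕ} [NeZero m] {c : ℤ → ℤ}

lemma sq (h : RC m c) {x : ℤ} (hx : IsUnit (x : ZMod m)) : c x * c x = 1 := by
  obtain ⟨y, hy⟩ := hx.exists_right_inv
  have h1 : c (x * (y.val : ℤ)) = 1 := by
    rw [← h.one]
    apply h.per
    push_cast
    rw [ZMod.natCast_zmod_val, hy]
  rw [h.mul] at h1
  rcases Int.eq_one_or_neg_one_of_mul_eq_one h1 with h2 | h2 <;> rw [h2] <;> norm_num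

lemma pm (h : RC m c) {x : ℤ} (hx : IsUnit (x : ZMod m)) : c x = 1 ∨ c x = -1 :=
  mul_self_eq_one_iff.1 (h.sq hx)

lemma val (h : RC m c) (x : ℤ) : c ((x : ZMod m).val : ℤ) = c x := by
  apply h.per
  simp

lemma abs_le (h : RC m c) (x : ℤ) : |c x| ≤ 1 := by
  by_cases hx : IsUnit (x : ZMod m)
  · rcases h.pm hx with h1 | h1 <;> rw [h1] <;> norm_num
  · rw [h.zero x hx]
    norm_num

end RC

lemma rc_one : RC 1 (fun _ => 1) where
  per := fun _ _ _ => rfl
  mul := fun _ _ => by norm_num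
  one := rfl
  zero := fun x hx => by
    exfalso
    apply hx
    rw [Subsingleton.elim (x : ZMod 1) 1]
    exact isUnit_one
  gauss := by
    refine ⟨1, one_ne_zero, fun k => ?_⟩
    have h : ∀ u : ZMod 1, (ZMod.stdAddChar (u * (k : ZMod 1)) : ℂ) = 1 := by
      intro u
      rw [Subsingleton.elim (u * (k : ZMod 1)) 0]
      exact AddChar.map_zero_eq_one _
    simp [h]

lemma rc_prime (p : ℕ) [hp : Fact p.Prime] (h2 : p ≠ 2) : RC p (fun x => jacobiSym x p) where
  per := fun x y h => P004.jac_congr h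
  mul := fun x y => jacobiSym.mul_left x y p
  one := jacobiSym.one_left p
  zero := fun x hx => by
    have h0 : (x : ZMod p) = 0 := by
      by_contra h
      exact hx (IsUnit.mk0 _ h)
    show jacobiSym x p = 0
    rw [← jacobiSym.legendreSym.to_jacobiSym]
    exact (legendreSym.eq_zero_iff p x).2 h0
  gauss := by
    refine ⟨P004.gs p, P004.gs_ne_zero h2, fun k => ?_⟩
    have e : ∀ x : ℤ, ((jacobiSym x p : ℤ) : ℂ) = P004.qc p (x : ZMod p) := by
      intro x
      rw [P004.qc_apply, ← jacobiSym.legendreSym.to_jacobiSym]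
      rfl
    rw [e k, ← P004.sum_qc_mul h2 (k : ZMod p)]
    refine Finset.sum_congr rfl fun u _ => ?_
    rw [e]
    congr 2
    push_cast
    exact ZMod.natCast_zmod_val u

/-- product of coprime moduli -/
lemma RC.prod {A B : ℕ} [NeZero A] [NeZero B] [NeZero (A * B)] (hAB : A.Coprime B)
    {c d : ℤ → ℤ} (hc : RC A c) (hd : RC B d) : RC (A * B) (fun x => c x * d x) where
  per := fun x y h => by
    have h1 : (x : ZMod A) = (y : ZMod A) := by
      have := congrArg (ZMod.castHom (dvd_mul_right A B) (ZMod A)) h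
      simpa using this
    have h2 : (x : ZMod B) = (y : ZMod B) := by
      have := congrArg (ZMod.castHom (dvd_mul_left B A) (ZMod B)) h
      simpa using this
    show c x * d x = c y * d y
    rw [hc.per x y h1, hd.per x y h2]
  mul := fun x y => by
    show c (x * y) * d (x * y) = c x * d x * (c y * d y)
    rw [hc.mul, hd.mul]
    ring
  one := by
    show c 1 * d 1 = 1
    rw [hc.one, hd.one]
    norm_num
  zero := fun x hx => by
    show c x * d x = 0
    by_cases h1 : IsUnit (x : ZMod A)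
    · by_cases h2 : IsUnit (x : ZMod B)
      · exfalso
        apply hx
        refine (ZMod.coe_int_isUnit_iff_isCoprime x (A * B)).2 ?_
        have h3 := (ZMod.coe_int_isUnit_iff_isCoprime x A).1 h1
        have h4 := (ZMod.coe_int_isUnit_iff_isCoprime x B).1 h2
        push_cast
        exact h3.mul_left h4
      · rw [hd.zero x h2, mul_zero]
    · rw [hc.zero x h1, zero_mul]
  gauss := by
    obtain ⟨g, hg, h1⟩ := hc.gauss
    obtain ⟨g', hg', h2⟩ := hd.gauss
    have uA : IsUnit (((B : ℤ)) : ZMod A) := by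
      push_cast
      exact (ZMod.isUnit_iff_coprime B A).2 hAB.symm
    have uB : IsUnit (((A : ℤ)) : ZMod B) := by
      push_cast
      exact (ZMod.isUnit_iff_coprime A B).2 hAB
    have n1 : (c (B : ℤ) : ℂ) ≠ 0 := by
      rcases hc.pm uA with h | h <;> rw [h] <;> norm_num
    have n2 : (d (A : ℤ) : ℂ) ≠ 0 := by
      rcases hd.pm uB with h | h <;> rw [h] <;> norm_num
    refine ⟨c B * g * (d A * g'), mul_ne_zero (mul_ne_zero n1 hg) (mul_ne_zero n2 hg'),
      fun k => ?_⟩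
    rw [P004.crt_sum A B hAB]
    have e1 : ∀ (β : ZMod A) (γ : ZMod B), c ((P004.crtMap A B (β, γ)).val : ℤ) =
        c B * c (β.val : ℤ) := by
      intro β γ
      rw [← hc.mul]
      apply hc.per
      have h := P004.crtMap_fst A B (β, γ)
      rw [ZMod.castHom_apply, ← ZMod.natCast_val] at h
      push_cast
      rw [h, ZMod.natCast_zmod_val]
    have e2 : ∀ (β : ZMod A) (γ : ZMod B), d ((P004.crtMap A B (β, γ)).val : ℤ) =
        d A * d (γ.val : ℤ) := by
      intro β γ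
      rw [← hd.mul]
      apply hd.per
      have h := P004.crtMap_snd A B (β, γ)
      rw [ZMod.castHom_apply, ← ZMod.natCast_val] at h
      push_cast
      rw [h, ZMod.natCast_zmod_val]
    have e3 : ∀ (β : ZMod A) (γ : ZMod B),
        ((c ((P004.crtMap A B (β, γ)).val : ℤ) * d ((P004.crtMap A B (β, γ)).val : ℤ) : ℤ) : ℂ) *
          ZMod.stdAddChar (P004.crtMap A B (β, γ) * (k : ZMod (A * B))) =
        (c B * d A) * ((c (β.val : ℤ) * ZMod.stdAddChar (β * (k : ZMod A))) *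
          (d (γ.val : ℤ) * ZMod.stdAddChar (γ * (k : ZMod B)))) := by
      intro β γ
      rw [P004.stdAddChar_crt, e1, e2]
      push_cast
      ring
    simp_rw [e3, ← Finset.mul_sum, ← Finset.sum_mul]
    rw [h1 k, h2 k]
    push_cast
    ring


lemma std_pow (m : ℕ) [NeZero m] (x : ZMod m) :
    (ZMod.stdAddChar x : ℂ) = ZMod.stdAddChar (1 : ZMod m) ^ x.val := by
  rw [← AddChar.map_nsmul_eq_pow, nsmul_one, ZMod.natCast_zmod_val]

lemma std_one_pow (m : ℕ) [NeZero m] (k : ℕ) :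
    (ZMod.stdAddChar (1 : ZMod m) : ℂ) ^ k = Complex.exp (2 * Real.pi * Complex.I * (k / m)) := by
  rw [← AddChar.map_nsmul_eq_pow, nsmul_one]
  have h := ZMod.stdAddChar_coe (N := m) (k : ℤ)
  push_cast at h
  rw [h]
  congr 1
  ring

lemma z4 : (ZMod.stdAddChar (1 : ZMod 4) : ℂ) ^ 2 = -1 := by
  rw [std_one_pow]
  rw [← Complex.exp_pi_mul_I]
  congr 1
  push_cast
  ring

lemma z8 : (ZMod.stdAddChar (1 : ZMod 8) : ℂ) ^ 4 = -1 := by
  rw [std_one_pow]
  rw [← Complex.exp_pi_mul_I]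
  congr 1
  push_cast
  ring

lemma casesgs4 (K : ZMod 4) : K = 0 ∨ K = 1 ∨ K = 2 ∨ K = 3 := by
  revert K
  decide

lemma gs4 (K : ZMod 4) : ∑ u : ZMod 4, (ZMod.χ₄ u : ℂ) * ZMod.stdAddChar (u * K) =
    ZMod.χ₄ K * (2 * ZMod.stdAddChar (1 : ZMod 4)) := by
  have hK := casesgs4 K
  have h := z4
  set z : ℂ := ZMod.stdAddChar (1 : ZMod 4) with hz
  have e : ∀ u : ZMod 4, (ZMod.stdAddChar (u * K) : ℂ) = z ^ (u * K).val := fun u => std_pow 4 _
  simp_rw [e]
  have p2 : z ^ 2 = -z ^ 0 := by linear_combination z ^ 0 * h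
  have p3 : z ^ 3 = -z ^ 1 := by linear_combination z ^ 1 * h
  have hs : ∀ f : ZMod 4 → ℂ, ∑ u : ZMod 4, f u = f 0 + f 1 + f 2 + f 3 := fun f =>
    Fin.sum_univ_four f
  rw [hs]
  have v0 : ZMod.χ₄ (0 : ZMod 4) = 0 := by decide
  have v1 : ZMod.χ₄ (1 : ZMod 4) = 1 := by decide
  have v2 : ZMod.χ₄ (2 : ZMod 4) = 0 := by decide
  have v3 : ZMod.χ₄ (3 : ZMod 4) = -1 := by decide
  rw [v0, v1, v2, v3]
  rcases hK with rfl | rfl | rfl | rfl
  · rw [v0]
    have e1 : ((1 : ZMod 4) * 0).val = 0 := by decide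
    have e3 : ((3 : ZMod 4) * 0).val = 0 := by decide
    rw [e1, e3]
    push_cast
    ring
  · rw [v1]
    have e1 : ((1 : ZMod 4) * 1).val = 1 := by decide
    have e3 : ((3 : ZMod 4) * 1).val = 3 := by decide
    rw [e1, e3]
    rw [p3]
    push_cast
    ring
  · rw [v2]
    have e1 : ((1 : ZMod 4) * 2).val = 2 := by decide
    have e3 : ((3 : ZMod 4) * 2).val = 2 := by decide
    rw [e1, e3]
    rw [p2]
    push_cast
    ring
  · rw [v3]
    have e1 : ((1 : ZMod 4) * 3).val = 3 := by decide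
    have e3 : ((3 : ZMod 4) * 3).val = 1 := by decide
    rw [e1, e3]
    rw [p3]
    push_cast
    ring

lemma casesgs8 (K : ZMod 8) : K = 0 ∨ K = 1 ∨ K = 2 ∨ K = 3 ∨ K = 4 ∨ K = 5 ∨ K = 6 ∨ K = 7 := by
  revert K
  decide

lemma gs8 (K : ZMod 8) : ∑ u : ZMod 8, (ZMod.χ₈ u : ℂ) * ZMod.stdAddChar (u * K) =
    ZMod.χ₈ K * (2 * (ZMod.stdAddChar (1 : ZMod 8) - ZMod.stdAddChar (1 : ZMod 8) ^ 3)) := by
  have hK := casesgs8 K
  have h := z8
  set z : ℂ := ZMod.stdAddChar (1 : ZMod 8) with hz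
  have e : ∀ u : ZMod 8, (ZMod.stdAddChar (u * K) : ℂ) = z ^ (u * K).val := fun u => std_pow 8 _
  simp_rw [e]
  have p4 : z ^ 4 = -z ^ 0 := by linear_combination z ^ 0 * h
  have p5 : z ^ 5 = -z ^ 1 := by linear_combination z ^ 1 * h
  have p6 : z ^ 6 = -z ^ 2 := by linear_combination z ^ 2 * h
  have p7 : z ^ 7 = -z ^ 3 := by linear_combination z ^ 3 * h
  have hs : ∀ f : ZMod 8 → ℂ, ∑ u : ZMod 8, f u = f 0 + f 1 + f 2 + f 3 + f 4 + f 5 + f 6 + f 7 := fun f =>
    Fin.sum_univ_eight f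
  rw [hs]
  have v0 : ZMod.χ₈ (0 : ZMod 8) = 0 := by decide
  have v1 : ZMod.χ₈ (1 : ZMod 8) = 1 := by decide
  have v2 : ZMod.χ₈ (2 : ZMod 8) = 0 := by decide
  have v3 : ZMod.χ₈ (3 : ZMod 8) = -1 := by decide
  have v4 : ZMod.χ₈ (4 : ZMod 8) = 0 := by decide
  have v5 : ZMod.χ₈ (5 : ZMod 8) = -1 := by decide
  have v6 : ZMod.χ₈ (6 : ZMod 8) = 0 := by decide
  have v7 : ZMod.χ₈ (7 : ZMod 8) = 1 := by decide
  rw [v0, v1, v2, v3, v4, v5, v6, v7]
  rcases hK with rfl | rfl | rfl | rfl | rfl | rfl | rfl | rfl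
  · rw [v0]
    have e1 : ((1 : ZMod 8) * 0).val = 0 := by decide
    have e3 : ((3 : ZMod 8) * 0).val = 0 := by decide
    have e5 : ((5 : ZMod 8) * 0).val = 0 := by decide
    have e7 : ((7 : ZMod 8) * 0).val = 0 := by decide
    rw [e1, e3, e5, e7]
    push_cast
    ring
  · rw [v1]
    have e1 : ((1 : ZMod 8) * 1).val = 1 := by decide
    have e3 : ((3 : ZMod 8) * 1).val = 3 := by decide
    have e5 : ((5 : ZMod 8) * 1).val = 5 := by decide
    have e7 : ((7 : ZMod 8) * 1).val = 7 := by decide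
    rw [e1, e3, e5, e7]
    rw [p5, p7]
    push_cast
    ring
  · rw [v2]
    have e1 : ((1 : ZMod 8) * 2).val = 2 := by decide
    have e3 : ((3 : ZMod 8) * 2).val = 6 := by decide
    have e5 : ((5 : ZMod 8) * 2).val = 2 := by decide
    have e7 : ((7 : ZMod 8) * 2).val = 6 := by decide
    rw [e1, e3, e5, e7]
    rw [p6]
    push_cast
    ring
  · rw [v3]
    have e1 : ((1 : ZMod 8) * 3).val = 3 := by decide
    have e3 : ((3 : ZMod 8) * 3).val = 1 := by decide
    have e5 : ((5 : ZMod 8) * 3).val = 7 := by decide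
    have e7 : ((7 : ZMod 8) * 3).val = 5 := by decide
    rw [e1, e3, e5, e7]
    rw [p5, p7]
    push_cast
    ring
  · rw [v4]
    have e1 : ((1 : ZMod 8) * 4).val = 4 := by decide
    have e3 : ((3 : ZMod 8) * 4).val = 4 := by decide
    have e5 : ((5 : ZMod 8) * 4).val = 4 := by decide
    have e7 : ((7 : ZMod 8) * 4).val = 4 := by decide
    rw [e1, e3, e5, e7]
    rw [p4]
    push_cast
    ring
  · rw [v5]
    have e1 : ((1 : ZMod 8) * 5).val = 5 := by decide
    have e3 : ((3 : ZMod 8) * 5).val = 7 := by decide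
    have e5 : ((5 : ZMod 8) * 5).val = 1 := by decide
    have e7 : ((7 : ZMod 8) * 5).val = 3 := by decide
    rw [e1, e3, e5, e7]
    rw [p5, p7]
    push_cast
    ring
  · rw [v6]
    have e1 : ((1 : ZMod 8) * 6).val = 6 := by decide
    have e3 : ((3 : ZMod 8) * 6).val = 2 := by decide
    have e5 : ((5 : ZMod 8) * 6).val = 6 := by decide
    have e7 : ((7 : ZMod 8) * 6).val = 2 := by decide
    rw [e1, e3, e5, e7]
    rw [p6]
    push_cast
    ring
  · rw [v7]
    have e1 : ((1 : ZMod 8) * 7).val = 7 := by decide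
    have e3 : ((3 : ZMod 8) * 7).val = 5 := by decide
    have e5 : ((5 : ZMod 8) * 7).val = 3 := by decide
    have e7 : ((7 : ZMod 8) * 7).val = 1 := by decide
    rw [e1, e3, e5, e7]
    rw [p5, p7]
    push_cast
    ring

lemma casesgs8' (K : ZMod 8) : K = 0 ∨ K = 1 ∨ K = 2 ∨ K = 3 ∨ K = 4 ∨ K = 5 ∨ K = 6 ∨ K = 7 := by
  revert K
  decide

lemma gs8' (K : ZMod 8) : ∑ u : ZMod 8, (ZMod.χ₈' u : ℂ) * ZMod.stdAddChar (u * K) =
    ZMod.χ₈' K * (2 * (ZMod.stdAddChar (1 : ZMod 8) + ZMod.stdAddChar (1 : ZMod 8) ^ 3)) := by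
  have hK := casesgs8' K
  have h := z8
  set z : ℂ := ZMod.stdAddChar (1 : ZMod 8) with hz
  have e : ∀ u : ZMod 8, (ZMod.stdAddChar (u * K) : ℂ) = z ^ (u * K).val := fun u => std_pow 8 _
  simp_rw [e]
  have p4 : z ^ 4 = -z ^ 0 := by linear_combination z ^ 0 * h
  have p5 : z ^ 5 = -z ^ 1 := by linear_combination z ^ 1 * h
  have p6 : z ^ 6 = -z ^ 2 := by linear_combination z ^ 2 * h
  have p7 : z ^ 7 = -z ^ 3 := by linear_combination z ^ 3 * h
  have hs : ∀ f : ZMod 8 → ℂ, ∑ u : ZMod 8, f u = f 0 + f 1 + f 2 + f 3 + f 4 + f 5 + f 6 + f 7 := fun f =>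
    Fin.sum_univ_eight f
  rw [hs]
  have v0 : ZMod.χ₈' (0 : ZMod 8) = 0 := by decide
  have v1 : ZMod.χ₈' (1 : ZMod 8) = 1 := by decide
  have v2 : ZMod.χ₈' (2 : ZMod 8) = 0 := by decide
  have v3 : ZMod.χ₈' (3 : ZMod 8) = 1 := by decide
  have v4 : ZMod.χ₈' (4 : ZMod 8) = 0 := by decide
  have v5 : ZMod.χ₈' (5 : ZMod 8) = -1 := by decide
  have v6 : ZMod.χ₈' (6 : ZMod 8) = 0 := by decide
  have v7 : ZMod.χ₈' (7 : ZMod 8) = -1 := by decide
  rw [v0, v1, v2, v3, v4, v5, v6, v7]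
  rcases hK with rfl | rfl | rfl | rfl | rfl | rfl | rfl | rfl
  · rw [v0]
    have e1 : ((1 : ZMod 8) * 0).val = 0 := by decide
    have e3 : ((3 : ZMod 8) * 0).val = 0 := by decide
    have e5 : ((5 : ZMod 8) * 0).val = 0 := by decide
    have e7 : ((7 : ZMod 8) * 0).val = 0 := by decide
    rw [e1, e3, e5, e7]
    push_cast
    ring
  · rw [v1]
    have e1 : ((1 : ZMod 8) * 1).val = 1 := by decide
    have e3 : ((3 : ZMod 8) * 1).val = 3 := by decide
    have e5 : ((5 : ZMod 8) * 1).val = 5 := by decide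
    have e7 : ((7 : ZMod 8) * 1).val = 7 := by decide
    rw [e1, e3, e5, e7]
    rw [p5, p7]
    push_cast
    ring
  · rw [v2]
    have e1 : ((1 : ZMod 8) * 2).val = 2 := by decide
    have e3 : ((3 : ZMod 8) * 2).val = 6 := by decide
    have e5 : ((5 : ZMod 8) * 2).val = 2 := by decide
    have e7 : ((7 : ZMod 8) * 2).val = 6 := by decide
    rw [e1, e3, e5, e7]
    rw [p6]
    push_cast
    ring
  · rw [v3]
    have e1 : ((1 : ZMod 8) * 3).val = 3 := by decide
    have e3 : ((3 : ZMod 8) * 3).val = 1 := by decide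
    have e5 : ((5 : ZMod 8) * 3).val = 7 := by decide
    have e7 : ((7 : ZMod 8) * 3).val = 5 := by decide
    rw [e1, e3, e5, e7]
    rw [p5, p7]
    push_cast
    ring
  · rw [v4]
    have e1 : ((1 : ZMod 8) * 4).val = 4 := by decide
    have e3 : ((3 : ZMod 8) * 4).val = 4 := by decide
    have e5 : ((5 : ZMod 8) * 4).val = 4 := by decide
    have e7 : ((7 : ZMod 8) * 4).val = 4 := by decide
    rw [e1, e3, e5, e7]
    rw [p4]
    push_cast
    ring
  · rw [v5]
    have e1 : ((1 : ZMod 8) * 5).val = 5 := by decide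
    have e3 : ((3 : ZMod 8) * 5).val = 7 := by decide
    have e5 : ((5 : ZMod 8) * 5).val = 1 := by decide
    have e7 : ((7 : ZMod 8) * 5).val = 3 := by decide
    rw [e1, e3, e5, e7]
    rw [p5, p7]
    push_cast
    ring
  · rw [v6]
    have e1 : ((1 : ZMod 8) * 6).val = 6 := by decide
    have e3 : ((3 : ZMod 8) * 6).val = 2 := by decide
    have e5 : ((5 : ZMod 8) * 6).val = 6 := by decide
    have e7 : ((7 : ZMod 8) * 6).val = 2 := by decide
    rw [e1, e3, e5, e7]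
    rw [p6]
    push_cast
    ring
  · rw [v7]
    have e1 : ((1 : ZMod 8) * 7).val = 7 := by decide
    have e3 : ((3 : ZMod 8) * 7).val = 5 := by decide
    have e5 : ((5 : ZMod 8) * 7).val = 3 := by decide
    have e7 : ((7 : ZMod 8) * 7).val = 1 := by decide
    rw [e1, e3, e5, e7]
    rw [p5, p7]
    push_cast
    ring


lemma z4_ne : (2 * ZMod.stdAddChar (1 : ZMod 4) : ℂ) ≠ 0 := by
  have h := z4
  intro h0
  have h1 : (ZMod.stdAddChar (1 : ZMod 4) : ℂ) = 0 := by linear_combination h0 / 2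
  rw [h1] at h
  norm_num at h

lemma z8_ne : (2 * (ZMod.stdAddChar (1 : ZMod 8) - ZMod.stdAddChar (1 : ZMod 8) ^ 3) : ℂ) ≠ 0 := by
  have h := z8
  intro h0
  have h1 : (ZMod.stdAddChar (1 : ZMod 8) - ZMod.stdAddChar (1 : ZMod 8) ^ 3 : ℂ) ^ 2 = 0 := by
    rw [show (ZMod.stdAddChar (1 : ZMod 8) - ZMod.stdAddChar (1 : ZMod 8) ^ 3 : ℂ) = 0 by
      linear_combination h0 / 2]
    norm_num
  have h2 : (ZMod.stdAddChar (1 : ZMod 8) - ZMod.stdAddChar (1 : ZMod 8) ^ 3 : ℂ) ^ 2 = 2 := by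
    linear_combination (ZMod.stdAddChar (1 : ZMod 8) ^ 2 - 2 : ℂ) * h
  rw [h1] at h2
  norm_num at h2

lemma z8_ne' :
    (2 * (ZMod.stdAddChar (1 : ZMod 8) + ZMod.stdAddChar (1 : ZMod 8) ^ 3) : ℂ) ≠ 0 := by
  have h := z8
  intro h0
  have h1 : (ZMod.stdAddChar (1 : ZMod 8) + ZMod.stdAddChar (1 : ZMod 8) ^ 3 : ℂ) ^ 2 = 0 := by
    rw [show (ZMod.stdAddChar (1 : ZMod 8) + ZMod.stdAddChar (1 : ZMod 8) ^ 3 : ℂ) = 0 by
      linear_combination h0 / 2]
    norm_num
  have h2 : (ZMod.stdAddChar (1 : ZMod 8) + ZMod.stdAddChar (1 : ZMod 8) ^ 3 : ℂ) ^ 2 = -2 := by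
    linear_combination (ZMod.stdAddChar (1 : ZMod 8) ^ 2 + 2 : ℂ) * h
  rw [h1] at h2
  norm_num at h2

/-- a character of Mathlib with integral values -/
lemma rc_of_mulChar {m : ℕ} [NeZero m] (χ : MulChar (ZMod m) ℤ) (g : ℂ) (hg : g ≠ 0)
    (h : ∀ K : ZMod m, ∑ u : ZMod m, (χ u : ℂ) * ZMod.stdAddChar (u * K) = χ K * g) :
    RC m (fun x => χ (x : ZMod m)) where
  per := fun x y h => by
    show χ _ = χ _
    rw [h]
  mul := fun x y => by
    show χ _ = χ _ * χ _
    rw [Int.cast_mul, map_mul]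
  one := by
    show χ _ = 1
    rw [Int.cast_one, map_one]
  zero := fun x hx => χ.map_nonunit hx
  gauss := by
    refine ⟨g, hg, fun k => ?_⟩
    rw [← h]
    refine Finset.sum_congr rfl fun u _ => ?_
    congr 3
    push_cast
    exact ZMod.natCast_zmod_val u

lemma rc_four : RC 4 (fun x => ZMod.χ₄ (x : ZMod 4)) := rc_of_mulChar _ _ z4_ne gs4
lemma rc_eight : RC 8 (fun x => ZMod.χ₈ (x : ZMod 8)) := rc_of_mulChar _ _ z8_ne gs8
lemma rc_eight' : RC 8 (fun x => ZMod.χ₈' (x : ZMod 8)) := rc_of_mulChar _ _ z8_ne' gs8'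

/-- Jacobi symbols modulo odd squarefree numbers -/
theorem rc_odd : ∀ q : ℕ, ∀ (_ : NeZero q), Squarefree q → Odd q →
    RC q (fun x => jacobiSym x q) := by
  intro q
  induction q using Nat.strong_induction_on with
  | _ q ih =>
    intro hq0 hsq hodd
    by_cases h1 : q = 1
    · subst h1
      have e : (fun x : ℤ => jacobiSym x 1) = fun _ => 1 := by
        funext x
        exact jacobiSym.one_right x
      rw [e]
      exact rc_one
    · obtain ⟨p, hp, r, rfl⟩ := Nat.exists_prime_and_dvd h1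
      have : Fact p.Prime := ⟨hp⟩
      have hr0 : r ≠ 0 := by
        rintro rfl
        simp at hsq
      have : NeZero r := ⟨hr0⟩
      have : NeZero p := ⟨hp.ne_zero⟩
      have hco : p.Coprime r := Nat.coprime_of_squarefree_mul hsq
      have hp2 : p ≠ 2 := by
        rintro rfl
        rcases hodd with ⟨t, ht⟩
        omega
      have hro : Odd r := Nat.Odd.of_mul_right hodd
      have hrs : Squarefree r := hsq.of_mul_right
      have hlt : r < p * r := by
        have := hp.two_le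
        have h3 : 0 < r := Nat.pos_of_ne_zero hr0
        nlinarith
      have h4 := (rc_prime p hp2).prod hco (ih r hlt inferInstance hrs hro)
      have e : (fun x : ℤ => jacobiSym x (p * r)) = fun x => jacobiSym x p * jacobiSym x r := by
        funext x
        exact jacobiSym.mul_right x p r
      rw [e]
      exact h4

end Vale.Agent.P004H.H871
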