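import Vale.Agent.P004H.H871.Gauss

/-!
# P004, `X_0(11)`: the character `χ_D` of a fundamental discriminant `D` (or `D = 1`)
-/

namespace Vale.Agent.P004H.H871

/-- `D = 1` or a fundamental discriminant -/
def Fd (D : ℤ) : Prop :=
  (D % 4 = 1 ∧ Squarefree D) ∨ ∃ d : ℤ, D = 4 * d ∧ (d % 4 = 2 ∨ d % 4 = 3) ∧ Squarefree d

/-- the character `χ_D` -/
def kr (D n : ℤ) : ℤ :=
  if D % 2 = 1 then jacobiSym n D.natAbs
  else if D % 8 = 4 then ZMod.χ₄ (n : ZMod 4) * jacobiSym n (D / 4).natAbs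
  else if D % 32 = 8 then ZMod.χ₈ (n : ZMod 8) * jacobiSym n (D / 8).natAbs
  else ZMod.χ₈' (n : ZMod 8) * jacobiSym n (D / 8).natAbs

/-- the four types of `D` -/
lemma Fd.cases {D : ℤ} (h : Fd D) :
    (D % 4 = 1 ∧ Squarefree D) ∨
    (∃ d : ℤ, D = 4 * d ∧ d % 4 = 3 ∧ Squarefree d) ∨
    (∃ d : ℤ, D = 8 * d ∧ d % 4 = 1 ∧ Squarefree d) ∨
    (∃ d : ℤ, D = 8 * d ∧ d % 4 = 3 ∧ Squarefree d) := by
  rcases h with h | ⟨d, rfl, h | h, hs⟩
  · exact Or.inl h
  · have h2 : ∃ e : ℤ, d = 2 * e := ⟨d / 2, by omega⟩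
    obtain ⟨e, rfl⟩ := h2
    have he : Squarefree e := hs.of_mul_right
    have ho : e % 2 = 1 := by omega
    rcases (by omega : e % 4 = 1 ∨ e % 4 = 3) with h3 | h3
    · exact Or.inr (Or.inr (Or.inl ⟨e, by ring, h3, he⟩))
    · exact Or.inr (Or.inr (Or.inr ⟨e, by ring, h3, he⟩))
  · exact Or.inr (Or.inl ⟨d, rfl, h, hs⟩)

lemma Fd.ne {D : ℤ} (h : Fd D) : D ≠ 0 := by
  rcases h.cases with h | ⟨d, rfl, h, -⟩ | ⟨d, rfl, h, -⟩ | ⟨d, rfl, h, -⟩ <;> omega

instance neZero_natAbs {D : ℤ} [h : NeZero D] : NeZero D.natAbs :=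
  ⟨Int.natAbs_ne_zero.2 h.out⟩

lemma kr_one_mod {D : ℤ} (h : D % 4 = 1) : kr D = fun n => jacobiSym n D.natAbs := by
  funext n
  unfold kr
  rw [if_pos (by omega)]

lemma kr_four {d : ℤ} (h : d % 4 = 3) :
    kr (4 * d) = fun n : ℤ => ZMod.χ₄ (n : ZMod 4) * jacobiSym n d.natAbs := by
  funext n
  unfold kr
  rw [if_neg (by omega), if_pos (by omega), Int.mul_ediv_cancel_left _ (by norm_num)]

lemma kr_eight {d : ℤ} (h : d % 4 = 1) :
    kr (8 * d) = fun n : ℤ => ZMod.χ₈ (n : ZMod 8) * jacobiSym n d.natAbs := by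
  funext n
  unfold kr
  rw [if_neg (by omega), if_neg (by omega), if_pos (by omega),
    Int.mul_ediv_cancel_left _ (by norm_num)]

lemma kr_eight' {d : ℤ} (h : d % 4 = 3) :
    kr (8 * d) = fun n : ℤ => ZMod.χ₈' (n : ZMod 8) * jacobiSym n d.natAbs := by
  funext n
  unfold kr
  rw [if_neg (by omega), if_neg (by omega), if_neg (by omega),
    Int.mul_ediv_cancel_left _ (by norm_num)]

lemma odd_natAbs {d : ℤ} (h : d % 2 = 1) : Odd d.natAbs := by
  rw [Int.natAbs_odd, Int.odd_iff]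
  exact h

lemma sqf_natAbs {d : ℤ} (h : Squarefree d) : Squarefree d.natAbs := Int.squarefree_natAbs.2 h

theorem kr_rc {D : ℤ} (h : Fd D) [NeZero D.natAbs] : RC D.natAbs (kr D) := by
  rcases h.cases with ⟨h1, hs⟩ | ⟨d, rfl, h1, hs⟩ | ⟨d, rfl, h1, hs⟩ | ⟨d, rfl, h1, hs⟩
  · rw [kr_one_mod h1]
    exact rc_odd _ _ (sqf_natAbs hs) (odd_natAbs (by omega))
  · have e : (4 * d).natAbs = 4 * d.natAbs := by rw [Int.natAbs_mul]; rfl
    have h0 : NeZero d.natAbs := ⟨Int.natAbs_ne_zero.2 (by omega)⟩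
    have ho := odd_natAbs (d := d) (by omega)
    have h2 := rc_four.prod (B := d.natAbs) (Nat.Coprime.pow_left 2 (Nat.coprime_two_left.2 ho))
      (rc_odd _ h0 (sqf_natAbs hs) ho)
    rw [kr_four h1]
    have key : ∀ (m : ℕ) (_ : NeZero m), m = 4 * d.natAbs →
        RC m (fun n : ℤ => ZMod.χ₄ (n : ZMod 4) * jacobiSym n d.natAbs) := by
      rintro m hm rfl
      exact h2
    exact key _ _ e
  · have e : (8 * d).natAbs = 8 * d.natAbs := by rw [Int.natAbs_mul]; rfl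
    have h0 : NeZero d.natAbs := ⟨Int.natAbs_ne_zero.2 (by omega)⟩
    have ho := odd_natAbs (d := d) (by omega)
    have h2 := rc_eight.prod (B := d.natAbs) (Nat.Coprime.pow_left 3 (Nat.coprime_two_left.2 ho))
      (rc_odd _ h0 (sqf_natAbs hs) ho)
    rw [kr_eight h1]
    have key : ∀ (m : ℕ) (_ : NeZero m), m = 8 * d.natAbs →
        RC m (fun n : ℤ => ZMod.χ₈ (n : ZMod 8) * jacobiSym n d.natAbs) := by
      rintro m hm rfl
      exact h2
    exact key _ _ e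
  · have e : (8 * d).natAbs = 8 * d.natAbs := by rw [Int.natAbs_mul]; rfl
    have h0 : NeZero d.natAbs := ⟨Int.natAbs_ne_zero.2 (by omega)⟩
    have ho := odd_natAbs (d := d) (by omega)
    have h2 := rc_eight'.prod (B := d.natAbs) (Nat.Coprime.pow_left 3 (Nat.coprime_two_left.2 ho))
      (rc_odd _ h0 (sqf_natAbs hs) ho)
    rw [kr_eight' h1]
    have key : ∀ (m : ℕ) (_ : NeZero m), m = 8 * d.natAbs →
        RC m (fun n : ℤ => ZMod.χ₈' (n : ZMod 8) * jacobiSym n d.natAbs) := by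
      rintro m hm rfl
      exact h2
    exact key _ _ e

/-! ### values -/

/-- reciprocity for `q ≡ 1 mod 4` of either sign -/
lemma recip {D : ℤ} (h : D % 4 = 1) {n : ℕ} (hn : Odd n) :
    jacobiSym n D.natAbs = jacobiSym D n := by
  rcases le_total 0 D with h0 | h0
  · have e : ((D.natAbs : ℕ) : ℤ) = D := Int.natAbs_of_nonneg h0
    have h1 : D.natAbs % 4 = 1 := by omega
    have h2 := jacobiSym.quadratic_reciprocity_one_mod_four h1 hn
    rw [e] at h2
    exact h2.symm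
  · have e : ((D.natAbs : ℕ) : ℤ) = -D := Int.ofNat_natAbs_of_nonpos h0
    have h1 : D.natAbs % 4 = 3 := by omega
    have ho : Odd D.natAbs := odd_natAbs (by omega)
    have e2 : D = -1 * ((D.natAbs : ℕ) : ℤ) := by rw [e]; ring
    have e3 : jacobiSym D n = jacobiSym (-1) n * jacobiSym (D.natAbs : ℕ) n := by
      conv_lhs => rw [e2]
      exact jacobiSym.mul_left _ _ _
    rw [e3, jacobiSym.at_neg_one hn]
    rcases Nat.odd_mod_four_iff.1 (Nat.odd_iff.1 hn) with h4 | h4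
    · rw [ZMod.χ₄_nat_one_mod_four h4, one_mul]
      exact jacobiSym.quadratic_reciprocity_one_mod_four h4 ho
    · rw [ZMod.χ₄_nat_three_mod_four h4,
        jacobiSym.quadratic_reciprocity_three_mod_four h4 h1]
      ring

/-- for odd `n` the character is the Jacobi symbol `(D/n)` -/
theorem kr_odd {D : ℤ} (h : Fd D) {n : ℕ} (hn : Odd n) : kr D n = jacobiSym D n := by
  have h2 : jacobiSym 2 n * jacobiSym 2 n = 1 := by
    have := jacobiSym.sq_one (a := 2) (b := n) (by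
      rw [Int.isCoprime_iff_gcd_eq_one.symm]
      exact (Nat.isCoprime_iff_coprime (m := 2) (n := n)).2 (Nat.coprime_two_left.2 hn))
    rwa [sq] at this
  have h4 : ∀ d : ℤ, d % 4 = 3 → jacobiSym d n =
      ZMod.χ₄ ((n : ℤ) : ZMod 4) * jacobiSym n d.natAbs := by
    intro d hd
    have e : d = -1 * -d := by ring
    conv_lhs => rw [e]
    rw [jacobiSym.mul_left, jacobiSym.at_neg_one hn, ← recip (D := -d) (by omega) hn,
      Int.natAbs_neg]
    push_cast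
    rfl
  rcases h.cases with ⟨h1, -⟩ | ⟨d, rfl, h1, -⟩ | ⟨d, rfl, h1, -⟩ | ⟨d, rfl, h1, -⟩
  · rw [kr_one_mod h1]
    exact recip h1 hn
  · rw [kr_four h1]
    show _ = jacobiSym (4 * d) n
    rw [show (4 : ℤ) * d = 2 * 2 * d by ring, jacobiSym.mul_left, jacobiSym.mul_left, h2, one_mul,
      h4 d h1]
  · rw [kr_eight h1]
    show ZMod.χ₈ ((n : ℤ) : ZMod 8) * jacobiSym n d.natAbs = jacobiSym (8 * d) n
    rw [show (8 : ℤ) * d = 2 * 2 * (2 * d) by ring, jacobiSym.mul_left, jacobiSym.mul_left, h2,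
      one_mul, jacobiSym.mul_left, jacobiSym.at_two hn, recip h1 hn]
    push_cast
    rfl
  · rw [kr_eight' h1]
    show ZMod.χ₈' ((n : ℤ) : ZMod 8) * jacobiSym n d.natAbs = jacobiSym (8 * d) n
    rw [show (8 : ℤ) * d = 2 * 2 * (2 * d) by ring, jacobiSym.mul_left, jacobiSym.mul_left, h2,
      one_mul, jacobiSym.mul_left, jacobiSym.at_two hn, h4 d h1, ZMod.χ₈'_int_eq_χ₄_mul_χ₈]
    push_cast
    ring

/-- `χ_D (2)` for odd `D` -/
theorem kr_two {D : ℤ} (h : D % 4 = 1) : kr D 2 = if D % 8 = 1 then 1 else -1 := by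
  rw [kr_one_mod h]
  show jacobiSym 2 D.natAbs = _
  have ho : Odd D.natAbs := odd_natAbs (by omega)
  rw [jacobiSym.at_two ho]
  have key : ZMod.χ₈ ((D.natAbs : ℕ) : ZMod 8) =
      if D.natAbs % 2 = 0 then 0 else if D.natAbs % 8 = 1 ∨ D.natAbs % 8 = 7 then 1 else -1 :=
    ZMod.χ₈_nat_eq_if_mod_eight _
  rw [key]
  split_ifs <;> omega

/-- the character vanishes on numbers which are not coprime to `D` -/
theorem kr_zero {D : ℤ} (h : Fd D) {n : ℤ} (hn : ¬ IsCoprime D n) : kr D n = 0 := by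
  have h0 : NeZero D.natAbs := ⟨Int.natAbs_ne_zero.2 h.ne⟩
  apply (kr_rc h).zero
  rw [ZMod.coe_int_isUnit_iff_isCoprime]
  intro h1
  apply hn
  rw [Int.isCoprime_iff_gcd_eq_one] at h1 ⊢
  exact h1

/-- the character takes the values `± 1` on numbers coprime to `D` -/
theorem kr_pm {D : ℤ} (h : Fd D) {n : ℤ} (hn : IsCoprime D n) : kr D n = 1 ∨ kr D n = -1 := by
  have h0 : NeZero D.natAbs := ⟨Int.natAbs_ne_zero.2 h.ne⟩
  apply (kr_rc h).pm
  rw [ZMod.coe_int_isUnit_iff_isCoprime]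
  rw [Int.isCoprime_iff_gcd_eq_one] at hn ⊢
  exact hn

theorem kr_mul {D : ℤ} (h : Fd D) (x y : ℤ) : kr D (x * y) = kr D x * kr D y := by
  have h0 : NeZero D.natAbs := ⟨Int.natAbs_ne_zero.2 h.ne⟩
  exact (kr_rc h).mul x y

theorem kr_one {D : ℤ} (h : Fd D) : kr D 1 = 1 := by
  have h0 : NeZero D.natAbs := ⟨Int.natAbs_ne_zero.2 h.ne⟩
  exact (kr_rc h).one

end Vale.Agent.P004H.H871
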