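import Vale.Agent.P004H.H871.Kron

/-!
# P004, `X_0(11)`: the functional equations of the quadratic twists of a form of level 11
-/

namespace Vale.Agent.P004H.H871

open Complex Finset

/-- what is used of the form `F` of weight 2 and level 11 with coefficients `a` -/
structure Form (F : ℂ → ℂ) (a : ℕ → ℤ) : Prop where
  slash : ∀ p q r s : ℤ, p * s - q * r = 1 → 11 ∣ r → ∀ z : ℂ, 0 < z.im →
    F ((p * z + q) / (r * z + s)) = (r * z + s) ^ 2 * F z
  fricke : ∀ z : ℂ, 0 < z.im → F (-1 / (11 * z)) = -11 * z ^ 2 * F z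
  qexp : ∀ z : ℂ, 0 < z.im →
    HasSum (fun n : ℕ => (a n : ℂ) * cexp (2 * Real.pi * I * (n * z))) (F z)

section keys

variable {F : ℂ → ℂ} {a : ℕ → ℤ} {m : ℕ}

lemma ne_zero_of_im {z : ℂ} (hz : 0 < z.im) : z ≠ 0 := by
  rintro rfl
  simp at hz

lemma im_add_div {z : ℂ} (hz : 0 < z.im) (V : ℤ) (m : ℕ) : 0 < (z + V / m).im := by
  have h : ((V : ℂ) / (m : ℂ)).im = 0 := by
    rw [show (V : ℂ) / (m : ℂ) = (((V : ℝ) / (m : ℝ) : ℝ) : ℂ) by push_cast; rfl]
    exact Complex.ofReal_im _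
  rw [Complex.add_im, h, add_zero]
  exact hz

lemma im_fricke {x : ℂ} (hx : 0 < x.im) : 0 < (-1 / (11 * x)).im := by
  have h1 : -1 / (11 * x) = ((1 / 11 : ℝ) : ℂ) * (-x⁻¹) := by
    push_cast
    have := ne_zero_of_im hx
    field_simp
  rw [h1, Complex.im_ofReal_mul, Complex.neg_im, Complex.inv_im]
  have h2 : 0 < Complex.normSq x := Complex.normSq_pos.2 (ne_zero_of_im hx)
  have h3 : 0 < x.im / Complex.normSq x := div_pos hx h2
  have h4 : -(-x.im / Complex.normSq x) = x.im / Complex.normSq x := by ring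
  rw [h4]
  positivity

/-- `m γ W (1, V/m; 0, 1)`, `γ = (t, U; 11 V, m)` -/
lemma key1 (h : Form F a) (hm : 0 < m) {U V t : ℤ} (ht : 11 * U * V + 1 = m * t) {z : ℂ}
    (hz : 0 < z.im) :
    F (-1 / (11 * (m : ℂ) ^ 2 * z) + U / m) = -11 * (m : ℂ) ^ 2 * z ^ 2 * F (z + V / m) := by
  have hx := im_add_div hz V m
  set x : ℂ := z + V / m with hxd
  have hx0 : x ≠ 0 := ne_zero_of_im hx
  have hz0 : z ≠ 0 := ne_zero_of_im hz
  have hm0 : (m : ℂ) ≠ 0 := by exact_mod_cast hm.ne'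
  have hw := im_fricke hx
  have h1 := h.slash t U (11 * V) m (by linarith) (Dvd.intro _ rfl) _ hw
  rw [h.fricke x hx] at h1
  have htc : (11 : ℂ) * U * V + 1 = m * t := by exact_mod_cast ht
  have hVx : (m : ℂ) * x = m * z + V := by
    rw [hxd]
    field_simp
  have e1 : ((11 * V : ℤ) : ℂ) * (-1 / (11 * x)) + ((m : ℤ) : ℂ) = m * z / x := by
    push_cast
    field_simp
    linear_combination hVx
  have e2 : ((t : ℂ) * (-1 / (11 * x)) + U) / (((11 * V : ℤ) : ℂ) * (-1 / (11 * x)) + ((m : ℤ) : ℂ)) =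
      -1 / (11 * (m : ℂ) ^ 2 * z) + U / m := by
    rw [e1]
    field_simp
    linear_combination (11 : ℂ) * U * hVx + htc
  rw [e2] at h1
  rw [h1, e1]
  field_simp

/-- `m γ (1, V/m; 0, 1)`, `γ = (U, -t; m, -V)` -/
lemma key2 (h : Form F a) (hm : 0 < m) (h11 : 11 ∣ m) {U V t : ℤ} (ht : U * V + 1 = m * t) {z : ℂ}
    (hz : 0 < z.im) :
    F (-1 / ((m : ℂ) ^ 2 * z) + U / m) = (m : ℂ) ^ 2 * z ^ 2 * F (z + V / m) := by
  have hx := im_add_div hz V m
  set x : ℂ := z + V / m with hxd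
  have hx0 : x ≠ 0 := ne_zero_of_im hx
  have hz0 : z ≠ 0 := ne_zero_of_im hz
  have hm0 : (m : ℂ) ≠ 0 := by exact_mod_cast hm.ne'
  have h1 := h.slash U (-t) m (-V) (by linarith) (by exact_mod_cast h11) _ hx
  have htc : (U : ℂ) * V + 1 = m * t := by exact_mod_cast ht
  have hVx : (m : ℂ) * x = m * z + V := by
    rw [hxd]
    field_simp
  have e1 : ((m : ℤ) : ℂ) * x + ((-V : ℤ) : ℂ) = m * z := by
    push_cast
    linear_combination hVx
  have e2 : ((U : ℂ) * x + ((-t : ℤ) : ℂ)) / (((m : ℤ) : ℂ) * x + ((-V : ℤ) : ℂ)) =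
      -1 / ((m : ℂ) ^ 2 * z) + U / m := by
    rw [e1]
    push_cast
    field_simp
    linear_combination (U : ℂ) * hVx + htc
  rw [e2, e1] at h1
  rw [h1]
  ring

end keys

/-! ### the twisted sums -/

section sums

variable {F : ℂ → ℂ} {a : ℕ → ℤ} {m : ℕ} [NeZero m] {c : ℤ → ℤ}

/-- `∑_u c(u) F(z + u/m)` -/
noncomputable def TS (m : ℕ) [NeZero m] (c : ℤ → ℤ) (F : ℂ → ℂ) (z : ℂ) : ℂ :=
  ∑ u : ZMod m, (c u.val : ℂ) * F (z + ((u.val : ℤ) : ℂ) / m)

/-- only the units contribute -/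
lemma sum_units (hc : RC m c) (G : ℕ → ℂ) : ∑ u : ZMod m, (c u.val : ℂ) * G u.val =
    ∑ u : (ZMod m)ˣ, (c (u : ZMod m).val : ℂ) * G (u : ZMod m).val := by
  have h1 : ∑ u : (ZMod m)ˣ, (c (u : ZMod m).val : ℂ) * G (u : ZMod m).val =
      ∑ u ∈ (Finset.univ : Finset (ZMod m)ˣ).map ⟨Units.val, Units.val_injective⟩,
        (c u.val : ℂ) * G u.val := by
    rw [Finset.sum_map]
    rfl
  rw [h1]
  symm
  apply Finset.sum_subset (Finset.subset_univ _)
  intro u _ hu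
  have h2 : ¬ IsUnit u := by
    intro h
    apply hu
    rw [Finset.mem_map]
    exact ⟨h.unit, Finset.mem_univ _, h.unit_spec⟩
  have h3 : c (u.val : ℤ) = 0 := by
    apply hc.zero
    push_cast
    rwa [ZMod.natCast_zmod_val]
  rw [h3]
  simp

/-- the twisted series in terms of the form -/
lemma twist_hasSum (h : Form F a) {g : ℂ} (hg : g ≠ 0)
    (hg2 : ∀ k : ℤ, ∑ u : ZMod m, (c u.val : ℂ) * ZMod.stdAddChar (u * (k : ZMod m)) = c k * g)
    {z : ℂ} (hz : 0 < z.im) :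
    HasSum (fun n : ℕ => (a n : ℂ) * c n * cexp (2 * Real.pi * I * (n * z))) (g⁻¹ * TS m c F z) := by
  have hm0 : (m : ℂ) ≠ 0 := by exact_mod_cast NeZero.ne m
  have h1 : ∀ u : ZMod m, HasSum (fun n : ℕ => (c u.val : ℂ) *
      ((a n : ℂ) * cexp (2 * Real.pi * I * (n * (z + ((u.val : ℤ) : ℂ) / m)))))
      ((c u.val : ℂ) * F (z + ((u.val : ℤ) : ℂ) / m)) := fun u =>
    (h.qexp _ (im_add_div hz _ m)).mul_left _
  have h2 := (hasSum_sum (fun u (_ : u ∈ (Finset.univ : Finset (ZMod m))) => h1 u)).mul_left g⁻¹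
  refine h2.congr_fun fun n => ?_
  have h3 : ∀ u : ZMod m, (ZMod.stdAddChar (u * ((n : ℤ) : ZMod m)) : ℂ) =
      cexp (2 * Real.pi * I * (n * (((u.val : ℤ) : ℂ) / m))) := by
    intro u
    rw [P004.stdAddChar_mul_int]
    congr 1
    push_cast
    ring
  have h4 : ∀ u : ZMod m, (c u.val : ℂ) *
      ((a n : ℂ) * cexp (2 * Real.pi * I * (n * (z + ((u.val : ℤ) : ℂ) / m)))) =
      ((a n : ℂ) * cexp (2 * Real.pi * I * (n * z))) *
        ((c u.val : ℂ) * ZMod.stdAddChar (u * ((n : ℤ) : ZMod m))) := by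
    intro u
    rw [h3 u, mul_add, mul_add, Complex.exp_add]
    ring
  simp_rw [h4, ← Finset.mul_sum]
  rw [hg2]
  field_simp

/-- the substitution `W u v = 1` -/
lemma TS_gen (hc : RC m c) {W : ℤ} (hW : IsUnit (W : ZMod m)) {Z z K : ℂ}
    (key : ∀ U V t : ℤ, -W * U * V + 1 = m * t → F (Z + U / m) = K * F (z + V / m)) :
    TS m c F Z = (c W : ℂ) * K * TS m c F z := by
  unfold TS
  rw [sum_units hc (fun k => F (Z + ((k : ℤ) : ℂ) / m)),
    sum_units hc (fun k => F (z + ((k : ℤ) : ℂ) / m)), Finset.mul_sum]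
  have hW' := hW
  obtain ⟨w, hw⟩ := hW
  let e : (ZMod m)ˣ ≃ (ZMod m)ˣ := (Equiv.mulLeft w).trans (Equiv.inv _)
  refine Fintype.sum_equiv e _ _ fun u => ?_
  have h1 : (W : ZMod m) * (u : ZMod m) * ((e u : (ZMod m)ˣ) : ZMod m) = 1 := by
    have h2 : w * u * e u = 1 := mul_inv_cancel (w * u)
    have h3 := congrArg (Units.val) h2
    rw [Units.val_mul, Units.val_mul, hw] at h3
    exact h3
  set U : ℤ := ((u : ZMod m).val : ℤ) with hU
  set V : ℤ := (((e u : (ZMod m)ˣ) : ZMod m).val : ℤ) with hV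
  have hUz : (U : ZMod m) = u := by
    rw [hU]
    push_cast
    exact ZMod.natCast_zmod_val _
  have hVz : (V : ZMod m) = (e u : (ZMod m)ˣ) := by
    rw [hV]
    push_cast
    exact ZMod.natCast_zmod_val _
  have hd : (m : ℤ) ∣ -W * U * V + 1 := by
    rw [← ZMod.intCast_zmod_eq_zero_iff_dvd]
    push_cast
    rw [hUz, hVz]
    linear_combination -h1
  obtain ⟨t, ht⟩ := hd
  rw [key U V t ht]
  have h5 : c W * c U * c V = 1 := by
    rw [← hc.mul, ← hc.mul, ← hc.one]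
    apply hc.per
    push_cast
    rw [hUz, hVz, h1]
  have h6 : c V * c V = 1 := hc.sq (by rw [hVz]; exact Units.isUnit _)
  have h7 : c W * c W = 1 := hc.sq hW'
  have h8 : c U = c W * c V := by linear_combination (c W * c V) * h5 - c U * c W * c W * h6 - c U * h7
  rw [h8]
  push_cast
  ring

/-- modulus prime to 11 -/
lemma TS_fe1 (h : Form F a) (hc : RC m c) (h11 : m.Coprime 11) {z : ℂ} (hz : 0 < z.im) :
    TS m c F (-1 / (11 * (m : ℂ) ^ 2 * z)) =
      (c (-11) : ℂ) * (-11 * (m : ℂ) ^ 2 * z ^ 2) * TS m c F z := by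
  have hm : 0 < m := Nat.pos_of_ne_zero (NeZero.ne m)
  refine TS_gen hc ?_ fun U V t ht => key1 h hm (t := t) (by linarith) hz
  rw [ZMod.coe_int_isUnit_iff_isCoprime]
  have : IsCoprime (m : ℤ) (11 : ℤ) := by exact_mod_cast Nat.isCoprime_iff_coprime.2 h11
  exact this.neg_right

/-- modulus divisible by 11 -/
lemma TS_fe2 (h : Form F a) (hc : RC m c) (h11 : 11 ∣ m) {z : ℂ} (hz : 0 < z.im) :
    TS m c F (-1 / ((m : ℂ) ^ 2 * z)) = (c (-1) : ℂ) * ((m : ℂ) ^ 2 * z ^ 2) * TS m c F z := by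
  have hm : 0 < m := Nat.pos_of_ne_zero (NeZero.ne m)
  refine TS_gen hc ?_ fun U V t ht => key2 h hm h11 (t := t) (by linarith) hz
  rw [ZMod.coe_int_isUnit_iff_isCoprime]
  exact isCoprime_one_right.neg_right

end sums

/-! ### real form -/

section real

variable {F : ℂ → ℂ} {a : ℕ → ℤ} {m : ℕ} [NeZero m] {c : ℤ → ℤ}

/-- the twisted theta series on the imaginary axis -/
noncomputable def fD (a : ℕ → ℤ) (c : ℤ → ℤ) (y : ℝ) : ℝ :=
  ∑' n : ℕ, ((a n * c n : ℤ) : ℝ) * Real.exp (-2 * Real.pi * n * y)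

lemma fD_eq (h : Form F a) {g : ℂ} (hg : g ≠ 0)
    (hg2 : ∀ k : ℤ, ∑ u : ZMod m, (c u.val : ℂ) * ZMod.stdAddChar (u * (k : ZMod m)) = c k * g)
    {y : ℝ} (hy : 0 < y) : ((fD a c y : ℝ) : ℂ) = g⁻¹ * TS m c F (y * I) := by
  have hz : 0 < ((y : ℂ) * I).im := by simpa using hy
  have h1 := twist_hasSum h hg hg2 hz
  rw [← h1.tsum_eq]
  unfold fD
  rw [Complex.ofReal_tsum]
  refine tsum_congr fun n => ?_
  push_cast
  congr 2
  have hI := Complex.I_mul_I
  linear_combination (-2 * Real.pi * n * y : ℂ) * hI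

/-- **functional equation**, modulus prime to 11 -/
theorem fe1 (h : Form F a) (hc : RC m c) (h11 : m.Coprime 11) {y : ℝ} (hy : 0 < y) :
    fD a c (1 / (11 * (m : ℝ) ^ 2 * y)) = c (-11) * (11 * (m : ℝ) ^ 2) * y ^ 2 * fD a c y := by
  obtain ⟨g, hg, hg2⟩ := hc.gauss
  have hm : (0 : ℝ) < m := by exact_mod_cast Nat.pos_of_ne_zero (NeZero.ne m)
  have hm0 : (m : ℂ) ≠ 0 := by exact_mod_cast NeZero.ne m
  have hy0 : (y : ℂ) ≠ 0 := by exact_mod_cast hy.ne'
  have hz : 0 < ((y : ℂ) * I).im := by simpa using hy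
  have h1 := TS_fe1 h hc h11 hz
  have e1 : -1 / (11 * (m : ℂ) ^ 2 * (y * I)) = ((1 / (11 * (m : ℝ) ^ 2 * y) : ℝ) : ℂ) * I := by
    push_cast
    have hI := Complex.I_mul_I
    field_simp
    linear_combination -hI
  rw [e1] at h1
  apply Complex.ofReal_injective
  rw [fD_eq h hg hg2 (by positivity), h1]
  push_cast
  rw [fD_eq h hg hg2 hy, mul_pow, Complex.I_sq]
  ring

/-- **functional equation**, modulus divisible by 11 -/
theorem fe2 (h : Form F a) (hc : RC m c) (h11 : 11 ∣ m) {y : ℝ} (hy : 0 < y) :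
    fD a c (1 / ((m : ℝ) ^ 2 * y)) = -c (-1) * (m : ℝ) ^ 2 * y ^ 2 * fD a c y := by
  obtain ⟨g, hg, hg2⟩ := hc.gauss
  have hm : (0 : ℝ) < m := by exact_mod_cast Nat.pos_of_ne_zero (NeZero.ne m)
  have hm0 : (m : ℂ) ≠ 0 := by exact_mod_cast NeZero.ne m
  have hy0 : (y : ℂ) ≠ 0 := by exact_mod_cast hy.ne'
  have hz : 0 < ((y : ℂ) * I).im := by simpa using hy
  have h1 := TS_fe2 h hc h11 hz
  have e1 : -1 / ((m : ℂ) ^ 2 * (y * I)) = ((1 / ((m : ℝ) ^ 2 * y) : ℝ) : ℂ) * I := by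
    push_cast
    have hI := Complex.I_mul_I
    field_simp
    linear_combination -hI
  rw [e1] at h1
  apply Complex.ofReal_injective
  rw [fD_eq h hg hg2 (by positivity), h1]
  push_cast
  rw [fD_eq h hg hg2 hy, mul_pow, Complex.I_sq]
  ring

end real

end Vale.Agent.P004H.H871
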